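import Vale.Agent.P146.R2.H844.TrH
import Vale.Agent.P146.R3.H49.Orth
import Vale.Agent.P146.R2.H952.XDef

set_option autoImplicit false

/-! Row H1 for the exponent `12/5` of P146 (helper844). -/

open MeasureTheory Set

namespace Vale.Agent.P146.R2.H844.X

open Vale.Agent.P146.R3

theorem mk_edge {c : ℝ} (hc : 0 < c) (_hc1 : c ≤ 1) {ε : ℝ} (hε : 0 < ε) (hε1 : ε ≤ 1) {h : ℝ → ℝ}
    (hh : Continuous h) (h0 : ∀ x ∈ Icc (-2 : ℝ) 2, 0 ≤ h x)
    (h1 : ∀ x ∈ Icc (2 - ε) 2, c * ε ≤ h x) :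
    Hh.Edge (fun x => min (h x) (min c (1 / 60) * (ε / 4))) (2 / √ε) (min c (1 / 60)) := by
  have hs : 0 < √ε := Real.sqrt_pos.2 hε
  have hs2 : √ε ^ 2 = ε := Real.sq_sqrt hε.le
  have hs1 : √ε ≤ 1 := Real.sqrt_le_one.2 hε1
  have hk : 0 < min c (1 / 60) := lt_min hc (by norm_num)
  have e1 : min c (1 / 60) / (2 / √ε) ^ 2 = min c (1 / 60) * (ε / 4) := by
    rw [div_pow, hs2]
    field_simp
    norm_num
  refine ⟨hh.min continuous_const, ?_, hk, min_le_right _ _, ?_, ?_, ?_⟩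
  · rw [le_div_iff₀ hs]; linarith
  · intro x hx
    exact le_min (h0 x hx) (by positivity)
  · intro x _
    rw [e1]; exact min_le_right _ _
  · intro t ht0 ht1
    rw [e1]
    have h2 : 2 * Real.cos t ∈ Icc (2 - ε) 2 := by
      refine ⟨?_, by linarith [Real.cos_le_one t]⟩
      have h3 := Hh.gap_le ht0
      have h4 : t ^ 2 ≤ ε := by
        have h5 := pow_le_pow_left₀ ht0 ht1 2
        have h6 : (1 / (2 / √ε)) ^ 2 = ε / 4 := by
          rw [one_div_div, div_pow, hs2]; norm_num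
        rw [h6] at h5
        linarith
      linarith
    have h7 := h1 _ h2
    have h8 : min c (1 / 60) * (ε / 4) ≤ c * ε := by
      have := min_le_left c (1 / 60)
      calc min c (1 / 60) * (ε / 4) ≤ c * (ε / 4) := by gcongr
        _ ≤ c * ε := by gcongr; linarith
    have h9 : min c (1 / 60) * (ε / 4) ≤
        min (h (2 * Real.cos t)) (min c (1 / 60) * (ε / 4)) := le_min (h8.trans h7) le_rfl
    have h10 : 0 < min c (1 / 60) * (ε / 4) := by positivity
    linarith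

/-- **Row H1** with the bound for the edge. -/
theorem h1_main {c : ℝ} (hc : 0 < c) (hc1 : c ≤ 1) {ε : ℝ} (hε : 0 < ε) (hε1 : ε ≤ 1)
    {h : ℝ → ℝ} (hh : Continuous h) (h0 : ∀ x ∈ Icc (-2 : ℝ) 2, 0 ≤ h x)
    (h1 : ∀ x ∈ Icc (2 - ε) 2, c * ε ≤ h x) :
    (∀ x ∈ Icc (-2 : ℝ) 2, x - h x < 2 - min c (1 / 60) / 40 * ε) ∧
    ∫ x, (2 - min c (1 / 60) / 40 * ε - x + h x)⁻¹ ∂sc ≤ 1 - min c (1 / 60) / 10 * √ε := by
  have H := mk_edge hc hc1 hε hε1 hh h0 h1
  have hs : 0 < √ε := Real.sqrt_pos.2 hε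
  have hs2 : √ε ^ 2 = ε := Real.sq_sqrt hε.le
  have e1 : min c (1 / 60) / 10 / (2 / √ε) ^ 2 = min c (1 / 60) / 40 * ε := by
    rw [div_pow, hs2]
    field_simp
    norm_num
  have e2 : min c (1 / 60) / 5 / (2 / √ε) = min c (1 / 60) / 10 * √ε := by
    field_simp
    norm_num
  have hlt : ∀ x ∈ Icc (-2 : ℝ) 2,
      0 < 2 - min c (1 / 60) / 40 * ε - x + min (h x) (min c (1 / 60) * (ε / 4)) := by
    intro x hx
    have h2 := Hh.edge_lt H hx
    rw [e1] at h2
    linarith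
  have hlt' : ∀ x ∈ Icc (-2 : ℝ) 2, 0 < 2 - min c (1 / 60) / 40 * ε - x + h x := by
    intro x hx
    have h2 := hlt x hx
    have h3 := min_le_left (h x) (min c (1 / 60) * (ε / 4))
    linarith
  refine ⟨fun x hx => by linarith [hlt' x hx], ?_⟩
  have h4 := Hh.edge_int H
  rw [e1, e2] at h4
  refine le_trans ?_ h4
  have hbd : ∀ g : ℝ → ℝ, Continuous g → (∀ x ∈ Icc (-2 : ℝ) 2, 0 < g x) →
      Integrable (fun x => (g x)⁻¹) sc := by
    intro g hg hpos
    have hgc : ContinuousOn (fun x => (g x)⁻¹) (Icc (-2 : ℝ) 2) :=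
      hg.continuousOn.inv₀ fun x hx => (hpos x hx).ne'
    obtain ⟨C, hC⟩ := isCompact_Icc.exists_bound_of_continuousOn hgc
    refine Integrable.of_bound (hg.measurable.inv).aestronglyMeasurable C ?_
    filter_upwards [H49.sc_ae] with x hx using hC x hx
  refine integral_mono_ae (hbd _ (by fun_prop) hlt') (hbd _ ?_ ?_) ?_
  · exact (continuous_const.sub (continuous_id.sub (hh.min continuous_const)))
  · intro x hx
    have := hlt x hx
    show 0 < 2 - min c (1 / 60) / 40 * ε - (x - min (h x) (min c (1 / 60) * (ε / 4)))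
    linarith
  · filter_upwards [H49.sc_ae] with x hx
    have h5 := hlt x hx
    have h6 := min_le_left (h x) (min c (1 / 60) * (ε / 4))
    show (2 - min c (1 / 60) / 40 * ε - x + h x)⁻¹ ≤
      (2 - min c (1 / 60) / 40 * ε - (x - min (h x) (min c (1 / 60) * (ε / 4))))⁻¹
    refine inv_anti₀ (by linarith) (by linarith)

theorem stH1 : Vale.Agent.P146.R2.H952.X.StH1 := by
  intro c hc hc1
  have hk : 0 < min c (1 / 60) := lt_min hc (by norm_num)
  refine ⟨min c (1 / 60) / 40, min c (1 / 60) / 10, by positivity, ?_, by positivity, ?_⟩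
  · have := min_le_left c (1 / 60)
    linarith
  · intro ε hε hε1 h hh h0 h1
    exact (h1_main hc hc1 hε hε1 hh h0 h1).2

end Vale.Agent.P146.R2.H844.X
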