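import Vale.Agent.P146.R2.H729.TrDef

set_option autoImplicit false

/-! Row B of clause (vi) of P146.LowerTail (helper844). -/

open Matrix Finset

namespace Vale.Agent.P146.R2.H844

theorem log_bd {x : ℝ} (_h1 : -(1 / 2) ≤ x) (h2 : x ≤ 1 / 2) :
    -x - x ^ 2 ≤ Real.log (1 - x) := by
  rcases le_total 0 x with h0 | h0
  · rw [Real.le_log_iff_exp_le (by linarith), show -x - x ^ 2 = -(x + x ^ 2) by ring, Real.exp_neg,
      inv_le_comm₀ (Real.exp_pos _) (by linarith)]
    refine le_trans ?_ (Real.quadratic_le_exp_of_nonneg (by positivity))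
    rw [inv_le_iff_one_le_mul₀ (by linarith)]
    have h3 : 0 ≤ x ^ 2 * (1 - x - x ^ 2 - x ^ 3) := by
      apply mul_nonneg (sq_nonneg x)
      nlinarith [mul_nonneg h0 (sub_nonneg.2 h2), mul_nonneg (mul_nonneg h0 h0) (sub_nonneg.2 h2)]
    nlinarith
  · have h3 := Real.le_log_one_add_of_nonneg (x := -x) (by linarith)
    rw [show (1 : ℝ) - x = 1 + -x by ring]
    refine le_trans ?_ h3
    rw [le_div_iff₀ (by linarith)]
    nlinarith [mul_nonneg (sq_nonneg x) (by linarith : (0 : ℝ) ≤ 1 - x)]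

theorem rowB {κ : Type} [Fintype κ] [DecidableEq κ] (K : Matrix κ κ ℝ) (hK : K.IsSymm)
    (hb : ∀ x : κ → ℝ, ∑ e, (K *ᵥ x) e ^ 2 ≤ 1 / 4 * ∑ e, x e ^ 2) :
    (1 - K).det ≠ 0 ∧ -K.trace - (K * K).trace ≤ Real.log |(1 - K).det| := by
  have hH : K.IsHermitian := by
    rw [Matrix.IsHermitian, Matrix.conjTranspose_eq_transpose_of_trivial]; exact hK
  set l := hH.eigenvalues with hl
  have hlb : ∀ i, |l i| ≤ 1 / 2 := by
    intro i
    have h1 := hH.mulVec_eigenvectorBasis i
    have h2 := hb (hH.eigenvectorBasis i)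
    rw [h1] at h2
    have h3 : ∑ e, (hH.eigenvectorBasis i : κ → ℝ) e ^ 2 = 1 := by
      have h4 := hH.eigenvectorBasis.orthonormal.1 i
      have h5 := EuclideanSpace.real_norm_sq_eq (hH.eigenvectorBasis i)
      rw [h4] at h5
      rw [← h5]; norm_num
    simp only [Pi.smul_apply, smul_eq_mul, mul_pow] at h2
    rw [← Finset.mul_sum, h3] at h2
    rw [abs_le]
    constructor <;> nlinarith
  have hs := hH.spectral_theorem
  set U := hH.eigenvectorUnitary with hU
  have hD : (RCLike.ofReal ∘ hH.eigenvalues : κ → ℝ) = l := by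
    funext i; simp [hl]
  rw [hD] at hs
  have ht : ∀ X : Matrix κ κ ℝ, (Unitary.conjStarAlgAut ℝ (Matrix κ κ ℝ) U X).trace = X.trace := by
    intro X
    rw [Unitary.conjStarAlgAut_apply, Matrix.trace_mul_cycle, Unitary.coe_star_mul_self, one_mul]
  have hd : ∀ X : Matrix κ κ ℝ, (Unitary.conjStarAlgAut ℝ (Matrix κ κ ℝ) U X).det = X.det := by
    intro X
    rw [Unitary.conjStarAlgAut_apply, Matrix.det_mul, Matrix.det_mul, mul_comm (U : Matrix κ κ ℝ).det,
      mul_assoc, ← Matrix.det_mul, Unitary.mul_star_self_of_mem U.2, Matrix.det_one, mul_one]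
  have h1 : K.trace = ∑ i, l i := by
    conv_lhs => rw [hs]
    rw [ht, Matrix.trace_diagonal]
  have h2 : (K * K).trace = ∑ i, l i ^ 2 := by
    have : K * K = Unitary.conjStarAlgAut ℝ (Matrix κ κ ℝ) U (diagonal l * diagonal l) := by
      rw [map_mul, ← hs]
    rw [this, ht, Matrix.diagonal_mul_diagonal, Matrix.trace_diagonal]
    exact Finset.sum_congr rfl fun i _ => by ring
  have h3 : (1 - K).det = ∏ i, (1 - l i) := by
    have : 1 - K = Unitary.conjStarAlgAut ℝ (Matrix κ κ ℝ) U (1 - diagonal l) := by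
      rw [map_sub, map_one, ← hs]
    have h6 : (1 : Matrix κ κ ℝ) - diagonal l = diagonal fun i => 1 - l i := by
      ext i j
      by_cases h : i = j
      · subst h; simp
      · simp [h]
    rw [this, hd, h6, Matrix.det_diagonal]
  have h4 : ∀ i, 0 < 1 - l i := fun i => by
    have := (abs_le.1 (hlb i)).2
    linarith
  have h5 : 0 < (1 - K).det := by
    rw [h3]; exact Finset.prod_pos fun i _ => h4 i
  refine ⟨h5.ne', ?_⟩
  rw [abs_of_pos h5, h3, Real.log_prod fun i _ => (h4 i).ne', h1, h2, ← Finset.sum_neg_distrib,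
    ← Finset.sum_sub_distrib]
  exact Finset.sum_le_sum fun i _ => log_bd (by linarith [(abs_le.1 (hlb i)).1]) (abs_le.1 (hlb i)).2

theorem stB : Vale.Agent.P146.R2.H729.Tr.StB := fun K hK hb => rowB K hK hb

end Vale.Agent.P146.R2.H844
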