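import Vale.Agent.P146.R2.H729.TrDef

set_option autoImplicit false

/-! Row D of clause (vi) of P146.LowerTail (helper844). -/

open Matrix Finset
open Vale.Agent.P146.R2.H432 (cheb)
open Vale.Agent.P146.Sk (Ix)
open Vale.Agent.P146.R2.H729.Tr

namespace Vale.Agent.P146.R2.H844

variable {N : ℕ}

theorem cheb_comm (A : Matrix (Fin N) (Fin N) ℝ) (k : ℕ) :
    Commute A (cheb k A) ∧ Commute A (cheb (k + 1) A) := by
  induction k with
  | zero => exact ⟨Commute.one_right A, Commute.refl A⟩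
  | succ k ih =>
    refine ⟨ih.2, ?_⟩
    show Commute A (A * cheb (k + 1) A - cheb k A)
    exact ((Commute.refl A).mul_right ih.2).sub_right ih.1

theorem cheb_symm {A : Matrix (Fin N) (Fin N) ℝ} (hA : A.IsSymm) (k : ℕ) :
    (cheb k A).IsSymm ∧ (cheb (k + 1) A).IsSymm := by
  induction k with
  | zero => exact ⟨Matrix.isSymm_one, hA⟩
  | succ k ih =>
    refine ⟨ih.2, ?_⟩
    show (A * cheb (k + 1) A - cheb k A)ᵀ = A * cheb (k + 1) A - cheb k A
    rw [Matrix.transpose_sub, Matrix.transpose_mul, ih.2.eq, hA.eq, ih.1.eq,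
      (cheb_comm A k).2.eq]

theorem cheb_ap {A : Matrix (Fin N) (Fin N) ℝ} (hA : A.IsSymm) (k : ℕ) (i j : Fin N) :
    cheb k A i j = cheb k A j i := ((cheb_symm hA k).1.apply i j).symm

theorem key2 (P Q : Matrix (Fin N) (Fin N) ℝ) (hQ : ∀ i j, Q i j = Q j i) :
    ∑ e : Fin N × Fin N, (P e.1 e.1 * Q e.2 e.2 + P e.1 e.2 * Q e.1 e.2) =
      P.trace * Q.trace + (P * Q).trace := by
  rw [Finset.sum_add_distrib]
  simp only [Fintype.sum_prod_type]
  congr 1
  · simp only [Matrix.trace, Matrix.diag_apply, Finset.sum_mul_sum]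
  · simp only [Matrix.trace, Matrix.diag_apply, Matrix.mul_apply]
    exact Finset.sum_congr rfl fun i _ => Finset.sum_congr rfl fun j _ => by rw [hQ i j]

theorem tr4 (P Q R S : Matrix (Fin N) (Fin N) ℝ) :
    (P * Q * R * S).trace = ∑ i, ∑ k, ∑ j, ∑ l, P i j * Q j k * (R k l * S l i) := by
  rw [Matrix.mul_assoc (P * Q) R S]
  simp only [Matrix.trace, Matrix.diag_apply]
  refine Finset.sum_congr rfl fun i _ => ?_
  rw [Matrix.mul_apply]
  refine Finset.sum_congr rfl fun k _ => ?_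
  rw [Matrix.mul_apply, Matrix.mul_apply, Finset.sum_mul_sum]

theorem tr22 (P Q R S : Matrix (Fin N) (Fin N) ℝ) :
    (P * Q).trace * (R * S).trace = ∑ i, ∑ k, ∑ j, ∑ l, P i j * Q j i * (R k l * S l k) := by
  simp only [Matrix.trace, Matrix.diag_apply]
  rw [Finset.sum_mul_sum]
  refine Finset.sum_congr rfl fun i _ => Finset.sum_congr rfl fun k _ => ?_
  rw [Matrix.mul_apply, Matrix.mul_apply, Finset.sum_mul_sum]

theorem key4 (P Q R S : Matrix (Fin N) (Fin N) ℝ) (_hP : ∀ i j, P i j = P j i)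
    (hQ : ∀ i j, Q i j = Q j i) (_hR : ∀ i j, R i j = R j i) (hS : ∀ i j, S i j = S j i) :
    ∑ e : Fin N × Fin N, ∑ f : Fin N × Fin N,
      (P e.1 f.1 * Q f.2 e.2 + P e.1 f.2 * Q f.1 e.2) *
        (R f.1 e.1 * S e.2 f.2 + R f.1 e.2 * S e.1 f.2) =
      (P * R).trace * (Q * S).trace + (P * S).trace * (Q * R).trace +
        (P * R * Q * S).trace + (P * S * Q * R).trace := by
  have e : ∀ e f : Fin N × Fin N, (P e.1 f.1 * Q f.2 e.2 + P e.1 f.2 * Q f.1 e.2) *
        (R f.1 e.1 * S e.2 f.2 + R f.1 e.2 * S e.1 f.2) =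
      P e.1 f.1 * R f.1 e.1 * (S e.2 f.2 * Q f.2 e.2) +
      P e.1 f.2 * S f.2 e.1 * (Q e.2 f.1 * R f.1 e.2) +
      P e.1 f.1 * R f.1 e.2 * (Q e.2 f.2 * S f.2 e.1) +
      P e.1 f.2 * S f.2 e.2 * (Q e.2 f.1 * R f.1 e.1) := by
    intro e f
    rw [hQ f.2 e.2, hQ f.1 e.2, hS e.2 f.2, hS e.1 f.2]
    ring
  simp only [e]
  simp only [Finset.sum_add_distrib]
  simp only [Fintype.sum_prod_type]
  rw [Matrix.trace_mul_comm Q S, tr22, tr22, tr4, tr4]
  congr 1
  · congr 1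
    congr 1
    refine Finset.sum_congr rfl fun i _ => Finset.sum_congr rfl fun k _ => ?_
    rw [Finset.sum_comm]
  · refine Finset.sum_congr rfl fun i _ => Finset.sum_congr rfl fun k _ => ?_
    rw [Finset.sum_comm]

theorem pull {ι : Type} (T : Finset ι) (R : Finset ℕ) (c : ℕ → ℝ) (X Y : ℕ → ℕ → ι → ℝ) :
    ∑ p ∈ T, (1 / 2 * ∑ k ∈ R, c k * ∑ a ∈ range (k + 1), X k a p) *
      (1 / 2 * ∑ l ∈ R, c l * ∑ b ∈ range (l + 1), Y l b p) =
    1 / 4 * ∑ k ∈ R, ∑ l ∈ R, c k * c l *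
      ∑ a ∈ range (k + 1), ∑ b ∈ range (l + 1), ∑ p ∈ T, X k a p * Y l b p := by
  have h1 : ∀ k l : ℕ, ∑ a ∈ range (k + 1), ∑ b ∈ range (l + 1), ∑ p ∈ T, X k a p * Y l b p =
      ∑ p ∈ T, (∑ a ∈ range (k + 1), X k a p) * ∑ b ∈ range (l + 1), Y l b p := by
    intro k l
    simp_rw [Finset.sum_mul_sum]
    rw [Finset.sum_comm (s := T)]
    refine Finset.sum_congr rfl fun a _ => ?_
    rw [Finset.sum_comm]
  have h2 : ∑ k ∈ R, ∑ l ∈ R, c k * c l * ∑ p ∈ T, (∑ a ∈ range (k + 1), X k a p) *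
      (∑ b ∈ range (l + 1), Y l b p) =
      ∑ p ∈ T, (∑ k ∈ R, c k * ∑ a ∈ range (k + 1), X k a p) *
        ∑ l ∈ R, c l * ∑ b ∈ range (l + 1), Y l b p := by
    simp_rw [Finset.sum_mul_sum R R]
    rw [Finset.sum_comm (s := T)]
    refine Finset.sum_congr rfl fun k _ => ?_
    rw [Finset.sum_comm (s := T)]
    refine Finset.sum_congr rfl fun l _ => ?_
    rw [Finset.mul_sum]
    exact Finset.sum_congr rfl fun p _ => by ring
  simp_rw [h1]
  rw [h2, Finset.mul_sum]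
  exact Finset.sum_congr rfl fun p _ => by ring

theorem stD : StD := by
  intro L c N A hA
  refine ⟨?_, ?_, ?_⟩
  · ext e f
    simp only [Matrix.transpose_apply, KK, Matrix.of_apply]
    congr 1
    refine Finset.sum_congr rfl fun k _ => ?_
    congr 1
    rw [Finset.sum_add_distrib, Finset.sum_add_distrib]
    congr 1
    · refine Finset.sum_congr rfl fun a _ => ?_
      rw [cheb_ap hA a f.1 e.1, cheb_ap hA (k - a) e.2 f.2]
    · rw [← Finset.sum_range_reflect]
      refine Finset.sum_congr rfl fun a ha => ?_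
      have ha' : a ≤ k := by
        have := Finset.mem_range.1 ha
        omega
      have h1 : k + 1 - 1 - a = k - a := by omega
      have h2 : k - (k - a) = a := by omega
      rw [h1, h2, cheb_ap hA (k - a) f.1 e.2, mul_comm, cheb_ap hA (k - a) e.2 f.1]
  · have h : (KK L c A).trace = ∑ e : Ix N, 1 / 2 * ∑ k ∈ range L, c k * ∑ a ∈ range (k + 1),
        (cheb a A e.1 e.1 * cheb (k - a) A e.2 e.2 + cheb a A e.1 e.2 * cheb (k - a) A e.1 e.2) := by
      rfl
    rw [h, ← Finset.mul_sum]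
    congr 1
    rw [Finset.sum_comm]
    refine Finset.sum_congr rfl fun k _ => ?_
    rw [← Finset.mul_sum]
    congr 1
    rw [Finset.sum_comm]
    exact Finset.sum_congr rfl fun a _ => key2 _ _ (cheb_ap hA _)
  · have h : (KK L c A * KK L c A).trace = ∑ p : Ix N × Ix N,
        (1 / 2 * ∑ k ∈ range L, c k * ∑ a ∈ range (k + 1),
          (cheb a A p.1.1 p.2.1 * cheb (k - a) A p.2.2 p.1.2 +
            cheb a A p.1.1 p.2.2 * cheb (k - a) A p.2.1 p.1.2)) *
        (1 / 2 * ∑ l ∈ range L, c l * ∑ b ∈ range (l + 1),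
          (cheb b A p.2.1 p.1.1 * cheb (l - b) A p.1.2 p.2.2 +
            cheb b A p.2.1 p.1.2 * cheb (l - b) A p.1.1 p.2.2)) := by
      rw [Fintype.sum_prod_type]
      simp only [Matrix.trace, Matrix.diag_apply, Matrix.mul_apply]
      rfl
    refine h.trans ?_
    rw [pull univ (range L) c
      (fun k a (p : Ix N × Ix N) => cheb a A p.1.1 p.2.1 * cheb (k - a) A p.2.2 p.1.2 +
            cheb a A p.1.1 p.2.2 * cheb (k - a) A p.2.1 p.1.2)
      (fun l b (p : Ix N × Ix N) => cheb b A p.2.1 p.1.1 * cheb (l - b) A p.1.2 p.2.2 +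
            cheb b A p.2.1 p.1.2 * cheb (l - b) A p.1.1 p.2.2)]
    congr 1
    refine Finset.sum_congr rfl fun k _ => Finset.sum_congr rfl fun l _ => ?_
    congr 1
    refine Finset.sum_congr rfl fun a _ => Finset.sum_congr rfl fun b _ => ?_
    rw [Fintype.sum_prod_type]
    exact key4 _ _ _ _ (cheb_ap hA _) (cheb_ap hA _) (cheb_ap hA _) (cheb_ap hA _)

end Vale.Agent.P146.R2.H844
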