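import Vale.Agent.P146.R2.H729.TrDef

/-! # P146: row E with explicit constants near the edge (helper844; the first lemmas are from H533/TrE) -/

open MeasureTheory ProbabilityTheory Matrix Filter Topology
open scoped Matrix.Norms.L2Operator

namespace Vale.Agent.P146.R2.H844.E2

open Vale.Agent.P146.R2.H432 (cheb)
open Vale.Agent.P146.Sk (Wm Ix)
open Vale.Agent.P146.R2.H729.Tr

variable {N : ℕ}

/-- the Hilbert-Schmidt norm -/
noncomputable def hs (X : Matrix (Fin N) (Fin N) ℝ) : ℝ := √(∑ i, ∑ j, X i j ^ 2)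

theorem hs_nonneg (X : Matrix (Fin N) (Fin N) ℝ) : 0 ≤ hs X := Real.sqrt_nonneg _

theorem hs_sq (X : Matrix (Fin N) (Fin N) ℝ) : hs X ^ 2 = ∑ i, ∑ j, X i j ^ 2 :=
  Real.sq_sqrt (Finset.sum_nonneg fun _ _ => Finset.sum_nonneg fun _ _ => sq_nonneg _)

theorem hs_eq (X : Matrix (Fin N) (Fin N) ℝ) :
    hs X = ‖(WithLp.toLp 2 (fun e : Fin N × Fin N => X e.1 e.2) :
      EuclideanSpace ℝ (Fin N × Fin N))‖ := by
  rw [EuclideanSpace.norm_eq, hs, Fintype.sum_prod_type]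
  simp only [Real.norm_eq_abs, sq_abs]

theorem hs_add (X Y : Matrix (Fin N) (Fin N) ℝ) : hs (X + Y) ≤ hs X + hs Y := by
  have h := norm_add_le
    (WithLp.toLp 2 (fun e : Fin N × Fin N => X e.1 e.2) : EuclideanSpace ℝ (Fin N × Fin N))
    (WithLp.toLp 2 (fun e : Fin N × Fin N => Y e.1 e.2))
  rw [hs_eq, hs_eq, hs_eq]
  exact h

theorem hs_smul (c : ℝ) (X : Matrix (Fin N) (Fin N) ℝ) : hs (c • X) = |c| * hs X := by
  have h : hs (c • X) = √(|c| ^ 2 * ∑ i, ∑ j, X i j ^ 2) := by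
    unfold hs
    congr 1
    rw [Finset.mul_sum]
    refine Finset.sum_congr rfl fun i _ => ?_
    rw [Finset.mul_sum]
    refine Finset.sum_congr rfl fun j _ => ?_
    rw [Matrix.smul_apply, smul_eq_mul, mul_pow, sq_abs]
  rw [h, Real.sqrt_mul (sq_nonneg _), Real.sqrt_sq (abs_nonneg c)]
  rfl

theorem hs_zero : hs (0 : Matrix (Fin N) (Fin N) ℝ) = 0 := by
  unfold hs
  simp

theorem hs_neg (X : Matrix (Fin N) (Fin N) ℝ) : hs (-X) = hs X := by
  unfold hs
  congr 1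
  refine Finset.sum_congr rfl fun i _ => Finset.sum_congr rfl fun j _ => ?_
  rw [Matrix.neg_apply, neg_sq]

theorem hs_sub (X Y : Matrix (Fin N) (Fin N) ℝ) : hs (X - Y) ≤ hs X + hs Y := by
  rw [sub_eq_add_neg]
  exact (hs_add _ _).trans (by rw [hs_neg])

theorem hs_sum {ι : Type*} (s : Finset ι) (X : ι → Matrix (Fin N) (Fin N) ℝ) :
    hs (∑ i ∈ s, X i) ≤ ∑ i ∈ s, hs (X i) := by
  classical
  induction s using Finset.induction_on with
  | empty => simp [hs_zero]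
  | insert a s ha ih =>
    rw [Finset.sum_insert ha, Finset.sum_insert ha]
    exact (hs_add _ _).trans (by linarith)

theorem hs_transpose (X : Matrix (Fin N) (Fin N) ℝ) : hs Xᵀ = hs X := by
  unfold hs
  rw [Finset.sum_comm]
  rfl

theorem mulVec_sq (U : Matrix (Fin N) (Fin N) ℝ) (v : Fin N → ℝ) :
    ∑ i, (U *ᵥ v) i ^ 2 ≤ ‖U‖ ^ 2 * ∑ i, v i ^ 2 := by
  have h := Matrix.l2_opNorm_mulVec U (WithLp.toLp 2 v)
  have h1 := pow_le_pow_left₀ (norm_nonneg _) h 2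
  rw [mul_pow, EuclideanSpace.norm_sq_eq, EuclideanSpace.norm_sq_eq] at h1
  simp only [Real.norm_eq_abs, sq_abs] at h1
  exact h1

theorem hs_mul_left (U X : Matrix (Fin N) (Fin N) ℝ) : hs (U * X) ≤ ‖U‖ * hs X := by
  have h : ∑ i, ∑ j, (U * X) i j ^ 2 ≤ ‖U‖ ^ 2 * ∑ i, ∑ j, X i j ^ 2 := by
    rw [Finset.sum_comm, Finset.sum_comm (f := fun i j => X i j ^ 2), Finset.mul_sum]
    refine Finset.sum_le_sum fun j _ => ?_
    exact mulVec_sq U fun i => X i j
  unfold hs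
  calc √(∑ i, ∑ j, (U * X) i j ^ 2) ≤ √(‖U‖ ^ 2 * ∑ i, ∑ j, X i j ^ 2) := Real.sqrt_le_sqrt h
    _ = ‖U‖ * √(∑ i, ∑ j, X i j ^ 2) := by
      rw [Real.sqrt_mul (sq_nonneg _), Real.sqrt_sq (norm_nonneg _)]

theorem hs_mul_right (X U : Matrix (Fin N) (Fin N) ℝ) : hs (X * U) ≤ hs X * ‖U‖ := by
  have h1 : ‖Uᵀ‖ = ‖U‖ := by
    rw [← Matrix.conjTranspose_eq_transpose_of_trivial, Matrix.l2_opNorm_conjTranspose]
  rw [← hs_transpose, Matrix.transpose_mul, ← hs_transpose X, mul_comm, ← h1]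
  exact hs_mul_left _ _

/-- the matrix form of `KK L c A *ᵥ x` -/
noncomputable def YY (L : ℕ) (c : ℕ → ℝ) (A X : Matrix (Fin N) (Fin N) ℝ) :
    Matrix (Fin N) (Fin N) ℝ :=
  (1 / 2 : ℝ) • ∑ k ∈ Finset.range L, c k • ∑ a ∈ Finset.range (k + 1),
    (cheb a A * X * cheb (k - a) A + cheb a A * Xᵀ * cheb (k - a) A)

theorem KK_mulVec (L : ℕ) (c : ℕ → ℝ) (A : Matrix (Fin N) (Fin N) ℝ) (x : Ix N → ℝ) (e : Ix N) :
    (KK L c A *ᵥ x) e = YY L c A (Matrix.of fun i j => x (i, j)) e.1 e.2 := by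
  have h1 : ∀ U V : Matrix (Fin N) (Fin N) ℝ, ∑ f : Ix N, U e.1 f.1 * V f.2 e.2 * x f =
      (U * (Matrix.of fun i j => x (i, j)) * V) e.1 e.2 := by
    intro U V
    rw [Fintype.sum_prod_type, Matrix.mul_apply, Finset.sum_comm]
    refine Finset.sum_congr rfl fun j _ => ?_
    rw [Matrix.mul_apply, Finset.sum_mul]
    refine Finset.sum_congr rfl fun i _ => ?_
    simp only [Matrix.of_apply]
    ring
  have h2 : ∀ U V : Matrix (Fin N) (Fin N) ℝ, ∑ f : Ix N, U e.1 f.2 * V f.1 e.2 * x f =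
      (U * (Matrix.of fun i j => x (i, j))ᵀ * V) e.1 e.2 := by
    intro U V
    rw [Fintype.sum_prod_type, Matrix.mul_apply]
    refine Finset.sum_congr rfl fun i _ => ?_
    rw [Matrix.mul_apply, Finset.sum_mul]
    refine Finset.sum_congr rfl fun j _ => ?_
    simp only [Matrix.of_apply, Matrix.transpose_apply]
    ring
  have hL : (KK L c A *ᵥ x) e = 1 / 2 * ∑ k ∈ Finset.range L, c k * ∑ a ∈ Finset.range (k + 1),
      (∑ f : Ix N, cheb a A e.1 f.1 * cheb (k - a) A f.2 e.2 * x f +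
        ∑ f : Ix N, cheb a A e.1 f.2 * cheb (k - a) A f.1 e.2 * x f) := by
    unfold KK Matrix.mulVec dotProduct
    simp only [Matrix.of_apply]
    simp_rw [mul_assoc (1 / 2 : ℝ), ← Finset.mul_sum]
    congr 1
    simp_rw [Finset.sum_mul]
    rw [Finset.sum_comm]
    refine Finset.sum_congr rfl fun k _ => ?_
    simp_rw [mul_assoc (c k), ← Finset.mul_sum]
    congr 1
    simp_rw [Finset.sum_mul]
    rw [Finset.sum_comm]
    refine Finset.sum_congr rfl fun a _ => ?_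
    rw [← Finset.sum_add_distrib]
    refine Finset.sum_congr rfl fun f _ => ?_
    ring
  rw [hL]
  unfold YY
  simp only [Matrix.smul_apply, Matrix.sum_apply, smul_eq_mul, Matrix.add_apply]
  congr 1
  refine Finset.sum_congr rfl fun k _ => ?_
  congr 1
  refine Finset.sum_congr rfl fun a _ => ?_
  rw [h1, h2]


theorem isSymm_cheb {A : Matrix (Fin N) (Fin N) ℝ} (hA : A.IsSymm) (k : ℕ) :
    (Commute A (cheb k A) ∧ Commute A (cheb (k + 1) A)) ∧
      ((cheb k A).IsSymm ∧ (cheb (k + 1) A).IsSymm) := by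
  induction k with
  | zero => exact ⟨⟨Commute.one_right A, Commute.refl A⟩, Matrix.isSymm_one, hA⟩
  | succ k ih =>
    refine ⟨⟨ih.1.2, ?_⟩, ih.2.2, ?_⟩
    · show Commute A (A * cheb (k + 1) A - cheb k A)
      exact ((Commute.refl A).mul_right ih.1.2).sub_right ih.1.1
    · show (A * cheb (k + 1) A - cheb k A)ᵀ = A * cheb (k + 1) A - cheb k A
      rw [Matrix.transpose_sub, Matrix.transpose_mul, ih.2.2.eq, hA.eq, ih.2.1.eq, ih.1.2.eq]

/-- the constant -/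
noncomputable def Kc (q : ℝ) (k : ℕ) : ℝ := (k + 1) * q ^ k

theorem hs_cheb_mul {A : Matrix (Fin N) (Fin N) ℝ} (hA : A.IsSymm) {q : ℝ} (hq : 1 ≤ q)
    (hn : ‖A‖ ≤ q + q⁻¹) (k : ℕ) (X : Matrix (Fin N) (Fin N) ℝ) :
    hs (cheb k A * X) ≤ Kc q k * hs X := by
  have hop : ∀ v : Fin N → ℝ, ∑ i, (A.mulVec v) i ^ 2 ≤ (q + q⁻¹) ^ 2 * ∑ i, v i ^ 2 := by
    intro v
    refine (mulVec_sq A v).trans ?_
    exact mul_le_mul_of_nonneg_right (pow_le_pow_left₀ (norm_nonneg _) hn 2)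
      (Finset.sum_nonneg fun _ _ => sq_nonneg _)
  have h := Vale.Agent.P146.R2.H432.cheb_norm (A := A) (fun i j => (hA.apply i j).symm) hq hop k
  have hK : 0 ≤ Kc q k := by unfold Kc; positivity
  have h1 : ∑ i, ∑ j, (cheb k A * X) i j ^ 2 ≤ Kc q k ^ 2 * ∑ i, ∑ j, X i j ^ 2 := by
    rw [Finset.sum_comm, Finset.sum_comm (f := fun i j => X i j ^ 2), Finset.mul_sum]
    refine Finset.sum_le_sum fun j _ => ?_
    exact h fun i => X i j
  unfold hs
  calc √(∑ i, ∑ j, (cheb k A * X) i j ^ 2) ≤ √(Kc q k ^ 2 * ∑ i, ∑ j, X i j ^ 2) :=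
        Real.sqrt_le_sqrt h1
    _ = Kc q k * √(∑ i, ∑ j, X i j ^ 2) := by
      rw [Real.sqrt_mul (sq_nonneg _), Real.sqrt_sq hK]

theorem hs_mul_cheb {A : Matrix (Fin N) (Fin N) ℝ} (hA : A.IsSymm) {q : ℝ} (hq : 1 ≤ q)
    (hn : ‖A‖ ≤ q + q⁻¹) (k : ℕ) (X : Matrix (Fin N) (Fin N) ℝ) :
    hs (X * cheb k A) ≤ Kc q k * hs X := by
  rw [← hs_transpose, Matrix.transpose_mul, (isSymm_cheb hA k).2.1.eq, ← hs_transpose X]
  exact hs_cheb_mul hA hq hn k _

/-- `U_{k+1}(A) - U_{k+1}(B) = ∑_{a ≤ k} U_a(A) (A - B) U_{k-a}(B)` -/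
theorem cheb_sub {A B : Matrix (Fin N) (Fin N) ℝ} (hB : B.IsSymm) (k : ℕ) :
    cheb (k + 1) A - cheb (k + 1) B =
        ∑ a ∈ Finset.range (k + 1), cheb a A * (A - B) * cheb (k - a) B ∧
    cheb (k + 2) A - cheb (k + 2) B =
        ∑ a ∈ Finset.range (k + 2), cheb a A * (A - B) * cheb (k + 1 - a) B := by
  have e1 : ∀ m : ℕ, ∑ a ∈ Finset.range (m + 2), cheb a A * (A - B) * cheb (m + 1 - a) B =
      (∑ a ∈ Finset.range (m + 1), cheb (a + 1) A * (A - B) * cheb (m - a) B) +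
        (A - B) * cheb (m + 1) B := by
    intro m
    rw [Finset.sum_range_succ']
    simp only [Nat.add_sub_add_right, Nat.sub_zero]
    congr 1
    show 1 * (A - B) * cheb (m + 1) B = _
    rw [Matrix.one_mul]
  have h0 : cheb 1 A - cheb 1 B =
      ∑ a ∈ Finset.range 1, cheb a A * (A - B) * cheb (0 - a) B := by
    simp [cheb]
  have h1 : cheb 2 A - cheb 2 B =
      ∑ a ∈ Finset.range 2, cheb a A * (A - B) * cheb (1 - a) B := by
    simp only [Finset.sum_range_succ, Finset.sum_range_zero, zero_add, cheb, Nat.sub_zero,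
      Nat.sub_self, Matrix.one_mul, Matrix.mul_one, Matrix.mul_sub, Matrix.sub_mul]
    abel
  induction k with
  | zero => exact ⟨h0, h1⟩
  | succ k ih =>
    refine ⟨ih.2, ?_⟩
    have hc := (isSymm_cheb hB (k + 1)).1.2
    have e2 : ∑ a ∈ Finset.range (k + 1 + 2), cheb a A * (A - B) * cheb (k + 1 + 1 - a) B =
        A * (cheb (k + 2) A - cheb (k + 2) B) - (cheb (k + 1) A - cheb (k + 1) B) +
          (A - B) * cheb (k + 2) B := by
      rw [e1 (k + 1), Finset.sum_range_succ']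
      have e3 : ∀ a ∈ Finset.range (k + 1),
          cheb (a + 1 + 1) A * (A - B) * cheb (k + 1 - (a + 1)) B =
          A * (cheb (a + 1) A * (A - B) * cheb (k - a) B) -
            cheb a A * (A - B) * cheb (k - a) B := by
        intro a _
        show (A * cheb (a + 1) A - cheb a A) * (A - B) * cheb (k + 1 - (a + 1)) B = _
        rw [Nat.add_sub_add_right]
        simp only [Matrix.sub_mul, Matrix.mul_assoc]
      rw [Finset.sum_congr rfl e3, Finset.sum_sub_distrib, ← Finset.mul_sum, ← ih.1]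
      have e4 : cheb (k + 2) A - cheb (k + 2) B - (A - B) * cheb (k + 1) B =
          ∑ a ∈ Finset.range (k + 1), cheb (a + 1) A * (A - B) * cheb (k - a) B := by
        rw [ih.2, e1 k]
        abel
      rw [← e4]
      show A * (cheb (k + 2) A - cheb (k + 2) B - (A - B) * cheb (k + 1) B) -
        (cheb (k + 1) A - cheb (k + 1) B) + A * (A - B) * cheb (k + 1 - 0) B +
          (A - B) * cheb (k + 1 + 1) B = _
      rw [Nat.sub_zero, Matrix.mul_sub A (cheb (k + 2) A - cheb (k + 2) B), Matrix.mul_assoc A]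
      abel
    rw [e2]
    show A * cheb (k + 2) A - cheb (k + 1) A - (B * cheb (k + 2) B - cheb (k + 1) B) = _
    simp only [Matrix.mul_sub, Matrix.sub_mul]
    abel

/-- the constant of row E near the edge -/
noncomputable def KE (L : ℕ) (c : ℕ → ℝ) (q : ℝ) : ℝ :=
  ∑ k ∈ Finset.range L, |c k| * ∑ a ∈ Finset.range (k + 1), Kc q a * Kc q (k - a)

theorem hs_YY (L : ℕ) (c : ℕ → ℝ) {A : Matrix (Fin N) (Fin N) ℝ} (hA : A.IsSymm) {q : ℝ}
    (hq : 1 ≤ q) (hn : ‖A‖ ≤ q + q⁻¹) (X : Matrix (Fin N) (Fin N) ℝ) :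
    hs (YY L c A X) ≤ KE L c q * hs X := by
  have h0 := hs_nonneg X
  have hK : ∀ k, 0 ≤ Kc q k := fun k => by unfold Kc; positivity
  have key : ∀ (k a : ℕ) (Z : Matrix (Fin N) (Fin N) ℝ), hs Z = hs X →
      hs (cheb a A * Z * cheb (k - a) A) ≤ Kc q a * Kc q (k - a) * hs X := by
    intro k a Z hZ
    have h1 := hs_mul_cheb hA hq hn (k - a) (cheb a A * Z)
    have h2 := hs_cheb_mul hA hq hn a Z
    rw [hZ] at h2
    calc hs (cheb a A * Z * cheb (k - a) A) ≤ Kc q (k - a) * hs (cheb a A * Z) := h1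
      _ ≤ Kc q (k - a) * (Kc q a * hs X) := mul_le_mul_of_nonneg_left h2 (hK _)
      _ = _ := by ring
  unfold YY
  rw [hs_smul, abs_of_pos (by norm_num : (0 : ℝ) < 1 / 2)]
  have h1 : hs (∑ k ∈ Finset.range L, c k • ∑ a ∈ Finset.range (k + 1),
      (cheb a A * X * cheb (k - a) A + cheb a A * Xᵀ * cheb (k - a) A)) ≤
      ∑ k ∈ Finset.range L, |c k| * ∑ a ∈ Finset.range (k + 1),
        (2 * (Kc q a * Kc q (k - a) * hs X)) := by
    refine (hs_sum _ _).trans (Finset.sum_le_sum fun k _ => ?_)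
    rw [hs_smul]
    refine mul_le_mul_of_nonneg_left ?_ (abs_nonneg _)
    refine (hs_sum _ _).trans (Finset.sum_le_sum fun a _ => ?_)
    have := hs_add (cheb a A * X * cheb (k - a) A) (cheb a A * Xᵀ * cheb (k - a) A)
    linarith [key k a X rfl, key k a Xᵀ (hs_transpose X)]
  have h2 : ∑ k ∈ Finset.range L, |c k| * ∑ a ∈ Finset.range (k + 1),
        (2 * (Kc q a * Kc q (k - a) * hs X)) = 2 * (KE L c q * hs X) := by
    unfold KE
    rw [Finset.sum_mul, Finset.mul_sum]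
    refine Finset.sum_congr rfl fun k _ => ?_
    rw [← Finset.mul_sum, ← Finset.sum_mul]
    ring
  linarith

theorem hs_hm (L : ℕ) (c : ℕ → ℝ) {A B : Matrix (Fin N) (Fin N) ℝ} (hA : A.IsSymm)
    (hB : B.IsSymm) {q : ℝ} (hq : 1 ≤ q) (hnA : ‖A‖ ≤ q + q⁻¹) (hnB : ‖B‖ ≤ q + q⁻¹) :
    hs (hm L c A - hm L c B) ≤ KE L c q * hs (A - B) := by
  have hK : ∀ k, 0 ≤ Kc q k := fun k => by unfold Kc; positivity
  have e : hm L c A - hm L c B =
      ∑ k ∈ Finset.range L, c k • (cheb (k + 1) A - cheb (k + 1) B) := by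
    unfold hm
    rw [← Finset.sum_sub_distrib]
    refine Finset.sum_congr rfl fun k _ => ?_
    rw [smul_sub]
  unfold KE
  rw [e, Finset.sum_mul]
  refine (hs_sum _ _).trans (Finset.sum_le_sum fun k _ => ?_)
  rw [hs_smul, mul_assoc]
  refine mul_le_mul_of_nonneg_left ?_ (abs_nonneg _)
  rw [(cheb_sub hB k).1, Finset.sum_mul]
  refine (hs_sum _ _).trans (Finset.sum_le_sum fun a _ => ?_)
  have h1 := hs_mul_cheb hB hq hnB (k - a) (cheb a A * (A - B))
  have h2 := hs_cheb_mul hA hq hnA a (A - B)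
  calc hs (cheb a A * (A - B) * cheb (k - a) B) ≤ Kc q (k - a) * hs (cheb a A * (A - B)) := h1
    _ ≤ Kc q (k - a) * (Kc q a * hs (A - B)) := mul_le_mul_of_nonneg_left h2 (hK _)
    _ = _ := by ring

/-- **Row E' (norm bounds near the edge).** -/
theorem rowE' (L : ℕ) (c : ℕ → ℝ) {q : ℝ} (hq : 1 ≤ q) {A B : Matrix (Fin N) (Fin N) ℝ}
    (hA : A.IsSymm) (hB : B.IsSymm) (hnA : ‖A‖ ≤ q + q⁻¹) (hnB : ‖B‖ ≤ q + q⁻¹) :
    (∀ x : Ix N → ℝ, ∑ e, (KK L c A *ᵥ x) e ^ 2 ≤ KE L c q ^ 2 * ∑ e, x e ^ 2) ∧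
    ∑ i, ∑ j, (hm L c A i j - hm L c B i j) ^ 2 ≤
      KE L c q ^ 2 * ∑ i, ∑ j, (A i j - B i j) ^ 2 := by
  refine ⟨fun x => ?_, ?_⟩
  · have h1 := hs_YY L c hA hq hnA (Matrix.of fun i j => x (i, j))
    have h2 := pow_le_pow_left₀ (hs_nonneg _) h1 2
    rw [mul_pow, hs_sq, hs_sq] at h2
    have h3 : ∑ e, (KK L c A *ᵥ x) e ^ 2 =
        ∑ i, ∑ j, YY L c A (Matrix.of fun i j => x (i, j)) i j ^ 2 := by
      rw [Fintype.sum_prod_type]
      refine Finset.sum_congr rfl fun i _ => Finset.sum_congr rfl fun j _ => ?_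
      rw [KK_mulVec]
    have h4 : ∑ i, ∑ j, (Matrix.of fun i j => x (i, j)) i j ^ 2 = ∑ e : Ix N, x e ^ 2 := by
      rw [Fintype.sum_prod_type]
      rfl
    rw [h3]
    rw [h4] at h2
    exact h2
  · have h1 := hs_hm L c hA hB hq hnA hnB
    have h2 := pow_le_pow_left₀ (hs_nonneg _) h1 2
    rw [mul_pow, hs_sq, hs_sq] at h2
    exact h2

/-- the constant at `q`: `KE ≤ ∑ |c_k| (k+1)(k+2)(k+3)/6 q^k` -/
theorem KE_eq (L : ℕ) (c : ℕ → ℝ) (q : ℝ) :
    KE L c q = ∑ k ∈ Finset.range L, |c k| * (((k + 1) * (k + 2) * (k + 3) / 6 : ℝ) * q ^ k) := by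
  have h : ∀ k : ℕ, ∑ a ∈ Finset.range (k + 1), Kc q a * Kc q (k - a) =
      ((k + 1) * (k + 2) * (k + 3) / 6 : ℝ) * q ^ k := by
    intro k
    have h1 : ∀ a ∈ Finset.range (k + 1), Kc q a * Kc q (k - a) =
        ((a + 1) * (k - a + 1) : ℝ) * q ^ k := by
      intro a ha
      have hak : a ≤ k := Nat.lt_succ_iff.1 (Finset.mem_range.1 ha)
      unfold Kc
      have h2 : q ^ k = q ^ a * q ^ (k - a) := by rw [← pow_add, Nat.add_sub_cancel' hak]
      rw [h2, Nat.cast_sub hak]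
      ring
    rw [Finset.sum_congr rfl h1, ← Finset.sum_mul]
    congr 1
    have h3 : ∀ m : ℕ, ∑ a ∈ Finset.range m, ((a + 1) * (k - a + 1) : ℝ) =
        m * (m + 1) / 2 * (k + 2) - m * (m + 1) * (2 * m + 1) / 6 := by
      intro m
      induction m with
      | zero => simp
      | succ m ih =>
        rw [Finset.sum_range_succ, ih]
        push_cast
        ring
    rw [h3]
    push_cast
    ring
  unfold KE
  exact Finset.sum_congr rfl fun k _ => by rw [h k]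

end Vale.Agent.P146.R2.H844.E2
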