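import Vale.Agent.P146.R3.H49.SC

set_option autoImplicit false

/-! The general edge lemma (row H) for the lower tail exponent `12/5` of P146 (helper844). -/

open MeasureTheory Set

namespace Vale.Agent.P146.R2.H844.Hh

open Vale.Agent.P146.R3

section angle

variable {t : ℝ}

theorem cos_half (t : ℝ) : Real.cos t = 2 * Real.cos (t / 2) ^ 2 - 1 := by
  have := Real.cos_two_mul (t / 2)
  rwa [show 2 * (t / 2) = t by ring] at this

theorem sin_half (t : ℝ) : Real.sin t = 2 * Real.sin (t / 2) * Real.cos (t / 2) := by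
  have := Real.sin_two_mul (t / 2)
  rwa [show 2 * (t / 2) = t by ring] at this

theorem gap_eq (t : ℝ) : 2 - 2 * Real.cos t = 4 * Real.sin (t / 2) ^ 2 := by
  rw [cos_half]
  nlinarith [Real.sin_sq_add_cos_sq (t / 2)]

theorem gap_le (h0 : 0 ≤ t) : 2 - 2 * Real.cos t ≤ t ^ 2 := by
  rw [gap_eq]
  have h1 : |Real.sin (t / 2)| ≤ |t / 2| := Real.abs_sin_le_abs
  rw [abs_of_nonneg (by linarith : 0 ≤ t / 2)] at h1
  have h2 := pow_le_pow_left₀ (abs_nonneg _) h1 2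
  rw [sq_abs] at h2
  nlinarith

theorem gap_ge (h0 : 0 ≤ t) (h1 : t ≤ Real.pi) : 2 / 5 * t ^ 2 ≤ 2 - 2 * Real.cos t := by
  rw [gap_eq]
  have h2 := Real.mul_le_sin (x := t / 2) (by linarith) (by linarith)
  have hp := Real.pi_pos
  have h3 : 0 ≤ 2 / Real.pi * (t / 2) := by positivity
  have h4 := pow_le_pow_left₀ h3 h2 2
  have h5 : (2 / Real.pi * (t / 2)) ^ 2 = t ^ 2 / Real.pi ^ 2 := by
    field_simp
  rw [h5] at h4
  have h6 : Real.pi ^ 2 ≤ 10 := by nlinarith [Real.pi_lt_d2]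
  have h7 : t ^ 2 / 10 ≤ t ^ 2 / Real.pi ^ 2 := by gcongr
  linarith

theorem cos_mul_le (h0 : 0 ≤ t) (h1 : t ≤ Real.pi) :
    Real.cos (t / 2) ^ 2 * t ^ 2 ≤ 2 - 2 * Real.cos t := by
  rw [gap_eq]
  have h2 : t / 2 * Real.cos (t / 2) ≤ Real.sin (t / 2) := by
    rcases eq_or_lt_of_le h1 with h | h
    · rw [h, Real.cos_pi_div_two, Real.sin_pi_div_two]; simp
    · have hc : 0 < Real.cos (t / 2) := Real.cos_pos_of_mem_Ioo ⟨by linarith [Real.pi_pos], by linarith⟩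
      have h3 := Real.le_tan (x := t / 2) (by linarith) (by linarith)
      rw [Real.tan_eq_sin_div_cos, le_div_iff₀ hc] at h3
      exact h3
  have h3 : 0 ≤ Real.cos (t / 2) :=
    Real.cos_nonneg_of_mem_Icc ⟨by linarith [Real.pi_pos], by linarith⟩
  have h4 := pow_le_pow_left₀ (by positivity) h2 2
  nlinarith

end angle

section main

variable {h : ℝ → ℝ} {L κ : ℝ}

/-- the hypotheses of the edge lemma -/
structure Edge (h : ℝ → ℝ) (L κ : ℝ) : Prop where
  cont : Continuous h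
  hL : 2 ≤ L
  k0 : 0 < κ
  k1 : κ ≤ 1 / 60
  lo : ∀ x ∈ Icc (-2 : ℝ) 2, 0 ≤ h x
  up : ∀ x ∈ Icc (-2 : ℝ) 2, h x ≤ κ / L ^ 2
  near : ∀ t : ℝ, 0 ≤ t → t ≤ 1 / L → 3 / 4 * (κ / L ^ 2) ≤ h (2 * Real.cos t)

/-- the denominator -/
noncomputable def DD (h : ℝ → ℝ) (L κ t : ℝ) : ℝ :=
  2 - κ / 10 / L ^ 2 - 2 * Real.cos t + h (2 * Real.cos t)

theorem mem_cos (t : ℝ) : 2 * Real.cos t ∈ Icc (-2 : ℝ) 2 :=
  ⟨by linarith [Real.neg_one_le_cos t], by linarith [Real.cos_le_one t]⟩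

theorem near_bd (H : Edge h L κ) {t : ℝ} (h0 : 0 ≤ t) (h1 : t ≤ 1 / L) :
    0 < DD h L κ t ∧ 2 - 2 * Real.cos t ≤ (1 - 63 / 100 * κ) * DD h L κ t := by
  have hL0 : 0 < L := by linarith [H.hL]
  have hd : 0 < 1 / L ^ 2 := by positivity
  set d := 1 / L ^ 2 with hdd
  have e1 : κ / L ^ 2 = κ * d := by rw [hdd]; ring
  have e2 : κ / 10 / L ^ 2 = κ * d / 10 := by rw [hdd]; ring
  have hn := H.near t h0 h1
  have hu := H.up _ (mem_cos t)
  have hg := gap_le h0
  have ht : t ^ 2 ≤ d := by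
    have := pow_le_pow_left₀ h0 h1 2
    rw [div_pow, one_pow] at this
    exact this
  have hg0 : 0 ≤ 2 - 2 * Real.cos t := by linarith [Real.cos_le_one t]
  rw [e1] at hn hu
  unfold DD
  rw [e2]
  have hk0 := H.k0
  have hk1 := H.k1
  have hkd : 0 < κ * d := by positivity
  have hkd2 : κ * d ≤ 1 / 60 * d := by nlinarith
  refine ⟨by linarith, ?_⟩
  have hD : 2 - κ * d / 10 - 2 * Real.cos t + h (2 * Real.cos t) ≤ 61 / 60 * d := by linarith
  have h3 : κ * (2 - κ * d / 10 - 2 * Real.cos t + h (2 * Real.cos t)) ≤ κ * (61 / 60 * d) :=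
    mul_le_mul_of_nonneg_left hD hk0.le
  nlinarith

theorem far_bd (H : Edge h L κ) {t : ℝ} (h0 : 1 / L ≤ t) (h1 : t ≤ Real.pi) :
    0 < DD h L κ t ∧ Real.cos (t / 2) ^ 2 * (2 - 2 * Real.cos t) ≤
      (Real.cos (t / 2) ^ 2 + κ / 9 / L ^ 2 * (t ^ 2)⁻¹) * DD h L κ t := by
  have hL0 : 0 < L := by linarith [H.hL]
  have hd : 0 < 1 / L ^ 2 := by positivity
  set d := 1 / L ^ 2 with hdd
  have e2 : κ / 10 / L ^ 2 = κ * d / 10 := by rw [hdd]; ring
  have e3 : κ / 9 / L ^ 2 = κ * d / 9 := by rw [hdd]; ring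
  have ht0 : 0 < t := lt_of_lt_of_le (by positivity) h0
  have hlo := H.lo _ (mem_cos t)
  have hg := gap_ge ht0.le h1
  have ht : d ≤ t ^ 2 := by
    have := pow_le_pow_left₀ (by positivity) h0 2
    rw [div_pow, one_pow] at this
    exact this
  have hk0 := H.k0
  have hk1 := H.k1
  have hkd : 0 < κ * d := by positivity
  have hkd2 : κ * d ≤ 1 / 60 * d := by nlinarith
  have hc := cos_mul_le ht0.le h1
  set s := 2 - 2 * Real.cos t with hs
  set c := Real.cos (t / 2) ^ 2 with hcc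
  have hc0 : 0 ≤ c := sq_nonneg _
  have hsd : 2 / 5 * d ≤ s := by linarith
  have hs0 : 0 < s := by linarith
  have hDe : DD h L κ t = s - κ * d / 10 + h (2 * Real.cos t) := by
    unfold DD; rw [e2, hs]; ring
  have hE : 239 / 240 * s ≤ DD h L κ t := by rw [hDe]; linarith
  refine ⟨by linarith, ?_⟩
  rw [e3]
  have h4 : s - κ * d / 10 ≤ DD h L κ t := by rw [hDe]; linarith
  have hti : 0 < (t ^ 2)⁻¹ := by positivity
  have h5 : c ≤ s * (t ^ 2)⁻¹ := by
    rw [← div_eq_mul_inv, le_div_iff₀ (by positivity)]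
    exact hc
  have h6 : κ * d / 10 * c ≤ κ * d / 9 * (t ^ 2)⁻¹ * (239 / 240 * s) := by
    have : κ * d / 10 * c ≤ κ * d / 10 * (s * (t ^ 2)⁻¹) := by gcongr
    have h7 : 0 ≤ κ * d * (s * (t ^ 2)⁻¹) := by positivity
    nlinarith
  have h8 : κ * d / 9 * (t ^ 2)⁻¹ * (239 / 240 * s) ≤ κ * d / 9 * (t ^ 2)⁻¹ * DD h L κ t := by
    gcongr
  have h9 : c * (s - κ * d / 10) ≤ c * DD h L κ t := by gcongr
  nlinarith

theorem DD_pos (H : Edge h L κ) {t : ℝ} (h0 : 0 ≤ t) (h1 : t ≤ Real.pi) : 0 < DD h L κ t := by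
  rcases le_total t (1 / L) with h | h
  · exact (near_bd H h0 h).1
  · exact (far_bd H h h1).1

/-- (i) -/
theorem edge_lt (H : Edge h L κ) {x : ℝ} (hx : x ∈ Icc (-2 : ℝ) 2) :
    x - h x < 2 - κ / 10 / L ^ 2 := by
  have h1 := DD_pos H (Real.arccos_nonneg (x / 2)) (Real.arccos_le_pi (x / 2))
  unfold DD at h1
  rw [Real.cos_arccos (by linarith [hx.1]) (by linarith [hx.2]),
    show 2 * (x / 2) = x by ring] at h1
  linarith

theorem int_near {a : ℝ} (h0 : 0 < a) (h1 : a ≤ 1 / 2) :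
    31 / 32 * a ≤ ∫ t in (0 : ℝ)..a, Real.cos (t / 2) ^ 2 := by
  have e : ∀ t : ℝ, Real.cos (t / 2) ^ 2 = 1 / 2 + 1 / 2 * Real.cos t := by
    intro t; rw [cos_half t]; ring
  simp_rw [e]
  rw [intervalIntegral.integral_add (by simp)
    ((by fun_prop : Continuous fun t : ℝ => 1 / 2 * Real.cos t).intervalIntegrable _ _),
    intervalIntegral.integral_const_mul, integral_cos]
  simp only [intervalIntegral.integral_const, sub_zero, smul_eq_mul, Real.sin_zero]
  have h2 := Real.sin_gt_sub_cube h0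
  have h3 : a ^ 3 ≤ 1 / 4 * a := by nlinarith [mul_pos h0 h0]
  linarith

theorem int_full : ∫ t in (0 : ℝ)..Real.pi, Real.cos (t / 2) ^ 2 = Real.pi / 2 := by
  have e : ∀ t : ℝ, Real.cos (t / 2) ^ 2 = 1 / 2 + 1 / 2 * Real.cos t := by
    intro t; rw [cos_half t]; ring
  simp_rw [e]
  rw [intervalIntegral.integral_add (by simp)
    ((by fun_prop : Continuous fun t : ℝ => 1 / 2 * Real.cos t).intervalIntegrable _ _),
    intervalIntegral.integral_const_mul, integral_cos]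
  simp
  ring

theorem int_far {a : ℝ} (h0 : 0 < a) (h1 : a ≤ Real.pi) :
    IntervalIntegrable (fun t : ℝ => (t ^ 2)⁻¹) volume a Real.pi ∧
      ∫ t in a..Real.pi, (t ^ 2)⁻¹ ≤ 1 / a := by
  have hc : ContinuousOn (fun t : ℝ => (t ^ 2)⁻¹) (uIcc a Real.pi) := by
    rw [uIcc_of_le h1]
    refine ContinuousOn.inv₀ (by fun_prop) fun t ht => ?_
    have : 0 < t := lt_of_lt_of_le h0 ht.1
    positivity
  refine ⟨hc.intervalIntegrable, ?_⟩
  have h2 : ∫ t in a..Real.pi, (t ^ 2)⁻¹ = -(Real.pi)⁻¹ - -(a)⁻¹ := by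
    refine intervalIntegral.integral_eq_sub_of_hasDerivAt (f := fun t : ℝ => -t⁻¹) (fun t ht => ?_)
      hc.intervalIntegrable
    rw [uIcc_of_le h1] at ht
    have ht0 : t ≠ 0 := (lt_of_lt_of_le h0 ht.1).ne'
    have := (hasDerivAt_inv ht0).neg
    rw [neg_neg] at this
    exact this
  rw [h2, one_div]
  have : 0 < (Real.pi)⁻¹ := inv_pos.2 Real.pi_pos
  linarith

/-- (ii) -/
theorem edge_int (H : Edge h L κ) :
    ∫ x, (2 - κ / 10 / L ^ 2 - (x - h x))⁻¹ ∂sc ≤ 1 - κ / 5 / L := by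
  have hL0 : 0 < L := by linarith [H.hL]
  have hk0 := H.k0
  have hk1 := H.k1
  have hp := Real.pi_pos
  have hp3 := Real.pi_gt_three
  have hm : Measurable fun x => (2 - κ / 10 / L ^ 2 - (x - h x))⁻¹ :=
    ((measurable_const.sub (measurable_id.sub H.cont.measurable))).inv
  rw [H49.integral_sc hm]
  set a := 1 / L with ha
  have ha0 : 0 < a := by positivity
  have ha1 : a ≤ 1 / 2 := by
    rw [ha]; exact one_div_le_one_div_of_le (by norm_num) H.hL
  have hapi : a ≤ Real.pi := by linarith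
  set f : ℝ → ℝ := fun t => 2 / Real.pi * Real.sin t ^ 2 *
    (2 - κ / 10 / L ^ 2 - (2 * Real.cos t - h (2 * Real.cos t)))⁻¹ with hf
  have hfD : ∀ t, f t = 2 / Real.pi * (Real.cos (t / 2) ^ 2 * (2 - 2 * Real.cos t) *
      (DD h L κ t)⁻¹) := by
    intro t
    have e1 : 2 - κ / 10 / L ^ 2 - (2 * Real.cos t - h (2 * Real.cos t)) = DD h L κ t := by
      unfold DD; ring
    simp only [hf]
    rw [e1, gap_eq, sin_half t]
    ring
  have hDc : Continuous fun t => DD h L κ t := by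
    unfold DD
    have := H.cont
    fun_prop
  have hfc : ContinuousOn f (Icc 0 Real.pi) := by
    have : f = fun t => 2 / Real.pi * (Real.cos (t / 2) ^ 2 * (2 - 2 * Real.cos t) *
      (DD h L κ t)⁻¹) := funext hfD
    rw [this]
    refine ContinuousOn.mul continuousOn_const (ContinuousOn.mul (by fun_prop) ?_)
    exact ContinuousOn.inv₀ hDc.continuousOn fun t ht => (DD_pos H ht.1 ht.2).ne'
  have i1 : IntervalIntegrable f volume 0 a := by
    refine ContinuousOn.intervalIntegrable ?_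
    rw [uIcc_of_le ha0.le]
    exact hfc.mono (Icc_subset_Icc_right hapi)
  have i2 : IntervalIntegrable f volume a Real.pi := by
    refine ContinuousOn.intervalIntegrable ?_
    rw [uIcc_of_le hapi]
    exact hfc.mono (Icc_subset_Icc_left ha0.le)
  have hcc : ∀ u v : ℝ, IntervalIntegrable (fun t : ℝ => Real.cos (t / 2) ^ 2) volume u v :=
    fun u v => (by fun_prop : Continuous fun t : ℝ => Real.cos (t / 2) ^ 2).intervalIntegrable _ _
  have hfar := int_far ha0 hapi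
  rw [← intervalIntegral.integral_add_adjacent_intervals i1 i2]
  have b1 : ∫ t in (0 : ℝ)..a, f t ≤
      ∫ t in (0 : ℝ)..a, 2 / Real.pi * (1 - 63 / 100 * κ) * Real.cos (t / 2) ^ 2 := by
    refine intervalIntegral.integral_mono_on ha0.le i1 ((hcc _ _).const_mul _) fun t ht => ?_
    obtain ⟨g1, g2⟩ := near_bd H ht.1 ht.2
    rw [hfD]
    have : Real.cos (t / 2) ^ 2 * (2 - 2 * Real.cos t) * (DD h L κ t)⁻¹ ≤
        (1 - 63 / 100 * κ) * Real.cos (t / 2) ^ 2 := by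
      rw [← div_eq_mul_inv, div_le_iff₀ g1]
      nlinarith [mul_le_mul_of_nonneg_left g2 (sq_nonneg (Real.cos (t / 2)))]
    calc 2 / Real.pi * (Real.cos (t / 2) ^ 2 * (2 - 2 * Real.cos t) * (DD h L κ t)⁻¹) ≤
        2 / Real.pi * ((1 - 63 / 100 * κ) * Real.cos (t / 2) ^ 2) := by gcongr
      _ = _ := by ring
  have b2 : ∫ t in a..Real.pi, f t ≤ ∫ t in a..Real.pi,
      (2 / Real.pi * Real.cos (t / 2) ^ 2 + 2 / Real.pi * (κ / 9 / L ^ 2) * (t ^ 2)⁻¹) := by
    refine intervalIntegral.integral_mono_on hapi i2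
      (((hcc _ _).const_mul _).add (hfar.1.const_mul _)) fun t ht => ?_
    obtain ⟨g1, g2⟩ := far_bd H ht.1 ht.2
    rw [hfD]
    have : Real.cos (t / 2) ^ 2 * (2 - 2 * Real.cos t) * (DD h L κ t)⁻¹ ≤
        Real.cos (t / 2) ^ 2 + κ / 9 / L ^ 2 * (t ^ 2)⁻¹ := by
      rw [← div_eq_mul_inv, div_le_iff₀ g1]
      exact g2
    calc 2 / Real.pi * (Real.cos (t / 2) ^ 2 * (2 - 2 * Real.cos t) * (DD h L κ t)⁻¹) ≤
        2 / Real.pi * (Real.cos (t / 2) ^ 2 + κ / 9 / L ^ 2 * (t ^ 2)⁻¹) := by gcongr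
      _ = _ := by ring
  rw [intervalIntegral.integral_const_mul] at b1
  rw [intervalIntegral.integral_add ((hcc _ _).const_mul _) (hfar.1.const_mul _),
    intervalIntegral.integral_const_mul, intervalIntegral.integral_const_mul] at b2
  have h3 := intervalIntegral.integral_add_adjacent_intervals (hcc 0 a) (hcc a Real.pi)
  rw [int_full] at h3
  have h4 := int_near ha0 ha1
  have h5 := hfar.2
  set A := ∫ t in (0 : ℝ)..a, Real.cos (t / 2) ^ 2 with hA
  set B := ∫ t in a..Real.pi, Real.cos (t / 2) ^ 2 with hB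
  set E := ∫ t in a..Real.pi, (t ^ 2)⁻¹ with hE
  have h6 : 2 / Real.pi * (κ / 9 / L ^ 2) * E ≤ 2 / Real.pi * (κ / 9 * a) := by
    have : κ / 9 / L ^ 2 * E ≤ κ / 9 / L ^ 2 * (1 / a) := by gcongr
    have e : κ / 9 / L ^ 2 * (1 / a) = κ / 9 * a := by
      rw [ha]; field_simp
    rw [e] at this
    calc 2 / Real.pi * (κ / 9 / L ^ 2) * E = 2 / Real.pi * (κ / 9 / L ^ 2 * E) := by ring
      _ ≤ _ := by gcongr
  have h7 : 2 / Real.pi * (A + B) = 1 := by rw [h3]; field_simp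
  have h8 : 2 / Real.pi * (63 / 100 * κ * A) ≥ 2 / Real.pi * (63 / 100 * κ * (31 / 32 * a)) := by
    gcongr
  have h9 : κ / 5 / L = κ / 5 * a := by rw [ha]; ring
  rw [h9]
  have hpi2 : 63 / 100 ≤ 2 / Real.pi := by
    rw [le_div_iff₀ hp]
    nlinarith [Real.pi_lt_d2]
  have hka : 0 < κ * a := by positivity
  have h10 : 63 / 100 * (κ * a) ≤ 2 / Real.pi * (κ * a) := by gcongr
  have e1 : 2 / Real.pi * (1 - 63 / 100 * κ) * A = 2 / Real.pi * A -
      2 / Real.pi * (63 / 100 * κ * A) := by ring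
  have e2 : 2 / Real.pi * (63 / 100 * κ * (31 / 32 * a)) =
      (63 / 100 * (31 / 32)) * (2 / Real.pi * (κ * a)) := by ring
  have e3 : 2 / Real.pi * (κ / 9 * a) = 1 / 9 * (2 / Real.pi * (κ * a)) := by ring
  have e4 : 2 / Real.pi * (A + B) = 2 / Real.pi * A + 2 / Real.pi * B := by ring
  nlinarith

end main

end Vale.Agent.P146.R2.H844.Hh
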