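import Vale.Agent.P146.R2.H844.TrE2
import Vale.Agent.P146.R2.H952.XDef

set_option autoImplicit false

/-! Row E' for the exponent `12/5` of P146 (helper844). -/

open Matrix Filter Topology
open scoped Matrix.Norms.L2Operator

namespace Vale.Agent.P146.R2.H844.X

theorem KE_nrm (L : ℕ) (c : ℕ → ℝ) (q : ℝ) :
    H844.E2.KE L c q = H952.X.nrm L c q := rfl

theorem stE' : Vale.Agent.P146.R2.H952.X.StE' := by
  intro L c q hq N A B hA hB hnA hnB
  exact H844.E2.rowE' L c hq hA hB hnA hnB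

/-- the explicit value of `nrm` -/
theorem nrm_eq (L : ℕ) (c : ℕ → ℝ) (q : ℝ) : H952.X.nrm L c q =
    ∑ k ∈ Finset.range L, |c k| * (((k + 1) * (k + 2) * (k + 3) / 6 : ℝ) * q ^ k) :=
  H844.E2.KE_eq L c q

end Vale.Agent.P146.R2.H844.X
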